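import Mathlib

namespace Vale.Agent.P224

open MeasureTheory

/-- `|S^k|`: the total mass of the surface measure of the unit sphere of `ℝ^(k+1)`
(Mathlib's `Measure.toSphere` of Lebesgue measure). -/
noncomputable def sphereVol (k : ℕ) : ℝ :=
  ((volume : Measure (EuclideanSpace ℝ (Fin (k + 1)))).toSphere Set.univ).toReal

/-- The volume of the minimal Clifford product `C_{k,m-k} = S^k(√(k/m)) × S^(m-k)(√((m-k)/m))`,
by the formula of the problem statement. -/
noncomputable def cliffordVol (m k : ℕ) : ℝ :=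
  ((k : ℝ) / m) ^ ((k : ℝ) / 2) * (((m - k : ℕ) : ℝ) / m) ^ (((m - k : ℕ) : ℝ) / 2)
    * sphereVol k * sphereVol (m - k)

end Vale.Agent.P224
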