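import Mathlib

namespace Vale.Agent.P224

open Real Set

/-- auxiliary function whose strict convexity drives the comparison -/
noncomputable def Lam (x : ℝ) : ℝ := (x - 1) / 2 * log (x - 1) - (x + 1) / 2 * log (x + 1) + log x

/-- its derivative -/
noncomputable def Lam' (x : ℝ) : ℝ := (log (x - 1) - log (x + 1)) / 2 + 1 / x

lemma hasDerivAt_Lam {x : ℝ} (hx : 1 < x) : HasDerivAt Lam (Lam' x) x := by
  have h1 : x - 1 ≠ 0 := by linarith
  have h2 : x + 1 ≠ 0 := by linarith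
  have h3 : x ≠ 0 := by linarith
  have d1 : HasDerivAt (fun y : ℝ => y - 1) 1 x := (hasDerivAt_id x).sub_const 1
  have d2 : HasDerivAt (fun y : ℝ => y + 1) 1 x := (hasDerivAt_id x).add_const 1
  have e1 : HasDerivAt (fun y : ℝ => (y - 1) / 2 * log (y - 1))
      (1 / 2 * log (x - 1) + (x - 1) / 2 * (1 / (x - 1))) x :=
    (d1.div_const 2).mul (d1.log h1)
  have e2 : HasDerivAt (fun y : ℝ => (y + 1) / 2 * log (y + 1))
      (1 / 2 * log (x + 1) + (x + 1) / 2 * (1 / (x + 1))) x :=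
    (d2.div_const 2).mul (d2.log h2)
  have e3 : HasDerivAt (fun y : ℝ => log y) (x⁻¹) x := hasDerivAt_log h3
  have key : HasDerivAt Lam ((1 / 2 * log (x - 1) + (x - 1) / 2 * (1 / (x - 1)))
      - (1 / 2 * log (x + 1) + (x + 1) / 2 * (1 / (x + 1))) + x⁻¹) x := (e1.sub e2).add e3
  refine key.congr_deriv ?_
  unfold Lam'
  field_simp
  ring

lemma hasDerivAt_Lam' {x : ℝ} (hx : 1 < x) :
    HasDerivAt Lam' (1 / (x ^ 2 - 1) - 1 / x ^ 2) x := by
  have h1 : x - 1 ≠ 0 := by linarith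
  have h2 : x + 1 ≠ 0 := by linarith
  have h3 : x ≠ 0 := by linarith
  have h4 : x ^ 2 - 1 ≠ 0 := by nlinarith
  have d1 : HasDerivAt (fun y : ℝ => y - 1) 1 x := (hasDerivAt_id x).sub_const 1
  have d2 : HasDerivAt (fun y : ℝ => y + 1) 1 x := (hasDerivAt_id x).add_const 1
  have e1 := ((d1.log h1).sub (d2.log h2)).div_const 2
  have e3 : HasDerivAt (fun y : ℝ => 1 / y) (-(x ^ 2)⁻¹) x := by
    simpa using hasDerivAt_inv h3
  have key : HasDerivAt Lam' ((1 / (x - 1) - 1 / (x + 1)) / 2 + -(x ^ 2)⁻¹) x := e1.add e3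
  refine key.congr_deriv ?_
  have h5 : x ^ 2 - 1 = (x - 1) * (x + 1) := by ring
  rw [h5]
  field_simp
  ring

lemma Lam'_strictMonoOn : StrictMonoOn Lam' (Ioi 1) := by
  refine strictMonoOn_of_hasDerivWithinAt_pos (f' := fun x => 1 / (x ^ 2 - 1) - 1 / x ^ 2)
    (convex_Ioi 1) ?_ ?_ ?_
  · intro x hx
    exact (hasDerivAt_Lam' hx).continuousAt.continuousWithinAt
  · intro x hx
    rw [interior_Ioi] at hx
    exact (hasDerivAt_Lam' hx).hasDerivWithinAt
  · intro x hx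
    rw [interior_Ioi] at hx
    have hx' : (1 : ℝ) < x := hx
    have h4 : 0 < x ^ 2 - 1 := by nlinarith
    have h5 : 0 < x ^ 2 := by positivity
    rw [sub_pos]
    exact one_div_lt_one_div_of_lt h4 (by linarith)

lemma Lam_strictConvexOn : StrictConvexOn ℝ (Ioi 1) Lam := by
  refine StrictMonoOn.strictConvexOn_of_deriv (convex_Ioi 1) ?_ ?_
  · intro x hx
    exact (hasDerivAt_Lam hx).continuousAt.continuousWithinAt
  · rw [interior_Ioi]
    intro x hx y hy hxy
    rw [(hasDerivAt_Lam hx).deriv, (hasDerivAt_Lam hy).deriv]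
    exact Lam'_strictMonoOn hx hy hxy

/-- strict midpoint convexity of `Lam` -/
lemma Lam_mid {x : ℝ} (hx : 2 < x) : 2 * Lam x < Lam (x + 1) + Lam (x - 1) := by
  have h := Lam_strictConvexOn.2 (show x + 1 ∈ Ioi (1 : ℝ) by simp; linarith)
    (show x - 1 ∈ Ioi (1 : ℝ) by simp; linarith)
    (show x + 1 ≠ x - 1 by intro h; linarith) (show (0 : ℝ) < 1 / 2 by norm_num)
    (show (0 : ℝ) < 1 / 2 by norm_num) (by norm_num)
  have e : (1 / 2 : ℝ) • (x + 1) + (1 / 2 : ℝ) • (x - 1) = x := by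
    simp only [smul_eq_mul]; ring
  rw [e] at h
  simp only [smul_eq_mul] at h
  linarith

end Vale.Agent.P224
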