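import Vale.Agent.P224.Lam

namespace Vale.Agent.P224

open Real Set

/-- `Gr x = log (x^(x/2) * 2 π^((x+1)/2) / Γ((x+1)/2))`, the logarithm of `x^(x/2) |S^x|`. -/
noncomputable def Gr (x : ℝ) : ℝ :=
  x / 2 * log x + (x + 1) / 2 * log π - log (Gamma ((x + 1) / 2)) + log 2

/-- second difference of `Gr` -/
noncomputable def Dd (x : ℝ) : ℝ := Gr (x + 2) - 2 * Gr (x + 1) + Gr x

lemma lgam_succ {y : ℝ} (hy : 0 < y) : log (Gamma (y + 1)) = log y + log (Gamma y) := by
  rw [Gamma_add_one hy.ne', log_mul hy.ne' (Gamma_pos_of_pos hy).ne']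

lemma Dd_sub {x : ℝ} (hx : 0 < x) :
    Dd x - Dd (x + 2) = Lam (x + 3) + Lam (x + 1) - 2 * Lam (x + 2) := by
  have g2 : log (Gamma ((x + 4) / 2)) = log ((x + 2) / 2) + log (Gamma ((x + 2) / 2)) := by
    rw [← lgam_succ (by positivity)]; congr 2; ring
  have g1a : log (Gamma ((x + 5) / 2)) = log ((x + 3) / 2) + log (Gamma ((x + 3) / 2)) := by
    rw [← lgam_succ (by positivity)]; congr 2; ring
  have g1b : log (Gamma ((x + 3) / 2)) = log ((x + 1) / 2) + log (Gamma ((x + 1) / 2)) := by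
    rw [← lgam_succ (by positivity)]; congr 2; ring
  have l1 : log ((x + 1) / 2) = log (x + 1) - log 2 := log_div (by positivity) (by norm_num)
  have l2 : log ((x + 2) / 2) = log (x + 2) - log 2 := log_div (by positivity) (by norm_num)
  have l3 : log ((x + 3) / 2) = log (x + 3) - log 2 := log_div (by positivity) (by norm_num)
  unfold Dd Gr Lam
  simp only [show x + 2 + 2 = x + 4 by ring, show x + 2 + 1 = x + 3 by ring,
    show x + 4 + 1 = x + 5 by ring, show x + 3 + 1 = x + 4 by ring, show x + 1 + 1 = x + 2 by ring,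
    show x + 3 - 1 = x + 2 by ring, show x + 1 - 1 = x by ring, show x + 2 - 1 = x + 1 by ring]
  rw [g1a, g1b, g2, l1, l2, l3]
  ring

lemma Dd_lower {x : ℝ} (hx : 0 < x) : -(1 / x) ≤ Dd x := by
  -- convexity of t log t
  have hv : 2 * ((x + 1) * log (x + 1)) ≤ (x + 2) * log (x + 2) + x * log x := by
    have h := Real.convexOn_mul_log.2 (show x + 2 ∈ Ici (0 : ℝ) by simp; linarith)
      (show x ∈ Ici (0 : ℝ) by simp; linarith) (show (0 : ℝ) ≤ 1 / 2 by norm_num)
      (show (0 : ℝ) ≤ 1 / 2 by norm_num) (by norm_num)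
    have e : (1 / 2 : ℝ) • (x + 2) + (1 / 2 : ℝ) • x = x + 1 := by
      simp only [smul_eq_mul]; ring
    rw [e] at h
    simp only [smul_eq_mul] at h
    linarith
  -- log-convexity of Gamma
  have hg1 : 2 * log (Gamma ((x + 3) / 2))
      ≤ log (Gamma ((x + 2) / 2)) + log (Gamma ((x + 4) / 2)) := by
    have h := Real.convexOn_log_Gamma.2 (show (x + 2) / 2 ∈ Ioi (0 : ℝ) by simp; linarith)
      (show (x + 4) / 2 ∈ Ioi (0 : ℝ) by simp; linarith) (show (0 : ℝ) ≤ 1 / 2 by norm_num)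
      (show (0 : ℝ) ≤ 1 / 2 by norm_num) (by norm_num)
    have e : (1 / 2 : ℝ) • ((x + 2) / 2) + (1 / 2 : ℝ) • ((x + 4) / 2) = (x + 3) / 2 := by
      simp only [smul_eq_mul]; ring
    rw [e] at h
    simp only [smul_eq_mul, Function.comp] at h
    linarith
  have hg2 : 2 * log (Gamma ((x + 1) / 2))
      ≤ log (Gamma (x / 2)) + log (Gamma ((x + 2) / 2)) := by
    have h := Real.convexOn_log_Gamma.2 (show x / 2 ∈ Ioi (0 : ℝ) by simp; linarith)
      (show (x + 2) / 2 ∈ Ioi (0 : ℝ) by simp; linarith) (show (0 : ℝ) ≤ 1 / 2 by norm_num)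
      (show (0 : ℝ) ≤ 1 / 2 by norm_num) (by norm_num)
    have e : (1 / 2 : ℝ) • (x / 2) + (1 / 2 : ℝ) • ((x + 2) / 2) = (x + 1) / 2 := by
      simp only [smul_eq_mul]; ring
    rw [e] at h
    simp only [smul_eq_mul, Function.comp] at h
    linarith
  have g2 : log (Gamma ((x + 4) / 2)) = log ((x + 2) / 2) + log (Gamma ((x + 2) / 2)) := by
    rw [← lgam_succ (by positivity)]; congr 2; ring
  have g0 : log (Gamma ((x + 2) / 2)) = log (x / 2) + log (Gamma (x / 2)) := by
    rw [← lgam_succ (by positivity)]; congr 2; ring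
  have l0 : log (x / 2) = log x - log 2 := log_div (by positivity) (by norm_num)
  have l2 : log ((x + 2) / 2) = log (x + 2) - log 2 := log_div (by positivity) (by norm_num)
  -- log (x+2) - log x ≤ 2 / x
  have hl : log (x + 2) - log x ≤ 2 / x := by
    rw [← log_div (by positivity) hx.ne']
    have := Real.log_le_sub_one_of_pos (show 0 < (x + 2) / x by positivity)
    have e : (x + 2) / x - 1 = 2 / x := by field_simp; ring
    linarith
  have e2 : (2 : ℝ) / x = 2 * (1 / x) := by ring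
  unfold Dd Gr
  simp only [show x + 2 + 1 = x + 3 by ring, show x + 1 + 1 = x + 2 by ring]
  rw [g2] at hg1
  nlinarith [hv, hg1, hg2, g0, l0, l2, hl, e2]

lemma Dd_anti {x : ℝ} (hx : 0 < x) : Dd (x + 2) < Dd x := by
  have h1 := Dd_sub hx
  have h2 := Lam_mid (x := x + 2) (by linarith)
  simp only [show x + 2 + 1 = x + 3 by ring, show x + 2 - 1 = x + 1 by ring] at h2
  linarith

lemma Dd_anti_iter {x : ℝ} (hx : 0 < x) (j : ℕ) : Dd (x + 2 * j) ≤ Dd x := by
  induction j with
  | zero => simp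
  | succ j ih =>
    have h := Dd_anti (x := x + 2 * j) (by positivity)
    have e : x + 2 * ((j + 1 : ℕ) : ℝ) = x + 2 * j + 2 := by push_cast; ring
    rw [e]
    linarith

lemma Dd_nonneg {x : ℝ} (hx : 0 < x) : 0 ≤ Dd x := by
  by_contra hcon
  rw [not_le] at hcon
  obtain ⟨j, hj⟩ := exists_nat_gt (1 / (-Dd x))
  have hpos : 0 < -Dd x := by linarith
  have hj0 : (0 : ℝ) < j := lt_of_lt_of_le (by positivity) hj.le
  have h1 := Dd_anti_iter hx j
  have h2 := Dd_lower (x := x + 2 * j) (by positivity)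
  have h3 : 1 / (x + 2 * j) < -Dd x := by
    rw [div_lt_iff₀ (by positivity)]
    rw [div_lt_iff₀ hpos] at hj
    nlinarith
  linarith

/-- strict log-convexity of the sequence `x^(x/2) |S^x|` -/
lemma Dd_pos {x : ℝ} (hx : 0 < x) : 0 < Dd x :=
  lt_of_le_of_lt (Dd_nonneg (x := x + 2) (by linarith)) (Dd_anti hx)

end Vale.Agent.P224
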