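import Vale.Agent.P224.LogConvex
import Vale.Agent.P224.Defs

namespace Vale.Agent.P224

open Real Set MeasureTheory

lemma sphereVol_eq (k : ℕ) :
    sphereVol k = 2 * √π ^ (k + 1) / Gamma (((k : ℝ) + 1) / 2) := by
  unfold sphereVol
  rw [Measure.toSphere_apply_univ, EuclideanSpace.volume_ball]
  simp only [finrank_euclideanSpace, Fintype.card_fin, ENNReal.ofReal_one, one_pow, one_mul]
  rw [ENNReal.toReal_mul, ENNReal.toReal_natCast, ENNReal.toReal_ofReal (by positivity)]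
  have h1 : (0 : ℝ) < ((k : ℝ) + 1) / 2 := by positivity
  have h2 : ((k + 1 : ℕ) : ℝ) / 2 + 1 = ((k : ℝ) + 1) / 2 + 1 := by push_cast; ring
  rw [h2, Gamma_add_one h1.ne']
  have h3 := (Gamma_pos_of_pos h1).ne'
  push_cast
  field_simp

lemma sphereVol_pos (k : ℕ) : 0 < sphereVol k := by
  rw [sphereVol_eq]
  have h1 : (0 : ℝ) < ((k : ℝ) + 1) / 2 := by positivity
  have := Gamma_pos_of_pos h1
  positivity

lemma exp_Gr (k : ℕ) (hk : 1 ≤ k) : exp (Gr k) = (k : ℝ) ^ ((k : ℝ) / 2) * sphereVol k := by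
  have hk0 : (0 : ℝ) < k := by exact_mod_cast hk
  have h1 : (0 : ℝ) < ((k : ℝ) + 1) / 2 := by positivity
  have hG := Gamma_pos_of_pos h1
  rw [sphereVol_eq]
  unfold Gr
  rw [exp_add, exp_sub, exp_add, exp_log hG, exp_log (by norm_num : (0 : ℝ) < 2)]
  have e1 : exp ((k : ℝ) / 2 * log k) = (k : ℝ) ^ ((k : ℝ) / 2) := by
    rw [rpow_def_of_pos hk0]; ring_nf
  have e2 : exp (((k : ℝ) + 1) / 2 * log π) = √π ^ (k + 1) := by
    rw [sqrt_eq_rpow, ← rpow_natCast, ← rpow_mul pi_pos.le, rpow_def_of_pos pi_pos]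
    push_cast; ring_nf
  rw [e1, e2]
  ring

lemma cliffordVol_eq (m k : ℕ) (hk : 1 ≤ k) (hkm : k < m) :
    cliffordVol m k = exp (Gr k + Gr ((m - k : ℕ) : ℝ)) / (m : ℝ) ^ ((m : ℝ) / 2) := by
  have hk0 : (0 : ℝ) < k := by exact_mod_cast hk
  have hm0 : (0 : ℝ) < m := by exact_mod_cast (lt_of_lt_of_le Nat.zero_lt_one hk).trans hkm
  have hl : 1 ≤ m - k := by omega
  have hl0 : (0 : ℝ) < ((m - k : ℕ) : ℝ) := by exact_mod_cast hl
  rw [exp_add, exp_Gr k hk, exp_Gr (m - k) hl]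
  unfold cliffordVol
  rw [div_rpow hk0.le hm0.le, div_rpow hl0.le hm0.le]
  have hsum : (m : ℝ) ^ ((m : ℝ) / 2) = (m : ℝ) ^ ((k : ℝ) / 2) * (m : ℝ) ^ (((m - k : ℕ) : ℝ) / 2) := by
    rw [← rpow_add hm0]
    congr 1
    rw [Nat.cast_sub hkm.le]; ring
  rw [hsum]
  have a1 : (m : ℝ) ^ ((k : ℝ) / 2) ≠ 0 := (rpow_pos_of_pos hm0 _).ne'
  have a2 : (m : ℝ) ^ (((m - k : ℕ) : ℝ) / 2) ≠ 0 := (rpow_pos_of_pos hm0 _).ne'
  field_simp

/-- increments of `Gr` along the integers are strictly increasing -/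
lemma incr_lt {a b : ℕ} (ha : 1 ≤ a) (hab : a < b) :
    Gr ((a : ℝ) + 1) - Gr a < Gr ((b : ℝ) + 1) - Gr b := by
  induction b, hab using Nat.le_induction with
  | base =>
    have h := Dd_pos (x := (a : ℝ)) (by exact_mod_cast ha)
    unfold Dd at h
    push_cast
    have e : (a : ℝ) + 1 + 1 = a + 2 := by ring
    rw [e]
    linarith
  | succ b hb ih =>
    have hb0 : (0 : ℝ) < b := by
      have : 0 < b := by omega
      exact_mod_cast this
    have h := Dd_pos (x := (b : ℝ)) hb0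
    unfold Dd at h
    push_cast
    have e : (b : ℝ) + 1 + 1 = b + 2 := by ring
    rw [e]
    linarith

/-- moving one unit towards the balanced split strictly decreases `Gr k + Gr l` -/
lemma step_lt {k l : ℕ} (hk : 1 ≤ k) (hkl : k + 2 ≤ l) :
    Gr ((k + 1 : ℕ) : ℝ) + Gr ((l - 1 : ℕ) : ℝ) < Gr k + Gr l := by
  have h := incr_lt (a := k) (b := l - 1) hk (by omega)
  have e : ((l - 1 : ℕ) : ℝ) + 1 = l := by
    rw [Nat.cast_sub (by omega)]; push_cast; ring
  rw [e] at h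
  push_cast
  linarith

lemma balanced_aux (n : ℕ) : ∀ k : ℕ, 1 ≤ k →
    Gr (((k + (k + n)) / 2 : ℕ) : ℝ) + Gr (((k + (k + n)) - (k + (k + n)) / 2 : ℕ) : ℝ)
      ≤ Gr k + Gr ((k + n : ℕ) : ℝ) ∧
    (2 ≤ n → Gr (((k + (k + n)) / 2 : ℕ) : ℝ) + Gr (((k + (k + n)) - (k + (k + n)) / 2 : ℕ) : ℝ)
      < Gr k + Gr ((k + n : ℕ) : ℝ)) := by
  induction n using Nat.strong_induction_on with
  | _ n ih =>
    intro k hk
    match n, ih with
    | 0, _ =>
      have e1 : (k + (k + 0)) / 2 = k := by omega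
      have e2 : (k + (k + 0)) - (k + (k + 0)) / 2 = k := by omega
      rw [e2, e1]
      exact ⟨le_rfl, fun h => absurd h (by norm_num)⟩
    | 1, _ =>
      have e1 : (k + (k + 1)) / 2 = k := by omega
      have e2 : (k + (k + 1)) - (k + (k + 1)) / 2 = k + 1 := by omega
      rw [e2, e1]
      exact ⟨le_rfl, fun h => absurd h (by norm_num)⟩
    | n + 2, ih =>
      have h1 := (ih n (by omega) (k + 1) (by omega)).1
      have h2 := step_lt (k := k) (l := k + (n + 2)) hk (by omega)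
      have e1 : (k + 1 + (k + 1 + n)) = (k + (k + (n + 2))) := by omega
      have e2 : k + (n + 2) - 1 = k + 1 + n := by omega
      rw [e1] at h1
      rw [e2] at h2
      have h3 := lt_of_le_of_lt h1 h2
      exact ⟨h3.le, fun _ => h3⟩

lemma cliffordVol_symm (m k : ℕ) (hk : 1 ≤ k) (hkm : k < m) :
    cliffordVol m (m - k) = cliffordVol m k := by
  rw [cliffordVol_eq m k hk hkm, cliffordVol_eq m (m - k) (by omega) (by omega)]
  have e : m - (m - k) = k := by omega
  rw [e, add_comm]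

lemma cliffordVol_lt_iff (m k k' : ℕ) (hk : 1 ≤ k) (hkm : k < m) (hk' : 1 ≤ k') (hkm' : k' < m) :
    cliffordVol m k < cliffordVol m k' ↔
      Gr k + Gr ((m - k : ℕ) : ℝ) < Gr k' + Gr ((m - k' : ℕ) : ℝ) := by
  have hm0 : (0 : ℝ) < m := by exact_mod_cast (lt_of_lt_of_le Nat.zero_lt_one hk).trans hkm
  rw [cliffordVol_eq m k hk hkm, cliffordVol_eq m k' hk' hkm',
    div_lt_div_iff_of_pos_right (rpow_pos_of_pos hm0 _), exp_lt_exp]

/-- below the balanced split, the Clifford volume is strictly decreasing in `k` -/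
lemma cliffordVol_step (m k : ℕ) (hk : 1 ≤ k) (hkm : 2 * k + 2 ≤ m) :
    cliffordVol m (k + 1) < cliffordVol m k := by
  rw [cliffordVol_lt_iff m (k + 1) k (by omega) (by omega) hk (by omega)]
  have h := step_lt (k := k) (l := m - k) hk (by omega)
  have e : m - k - 1 = m - (k + 1) := by omega
  rw [e] at h
  exact h

/-- for `k` at most the balanced value -/
lemma cliffordVol_min_aux (m k : ℕ) (hk : 1 ≤ k) (hkm : 2 * k ≤ m) :
    (k = m / 2 ∨ cliffordVol m (m / 2) < cliffordVol m k) := by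
  by_cases h : m - 2 * k ≤ 1
  · left; omega
  · right
    rw [cliffordVol_lt_iff m (m / 2) k (by omega) (by omega) hk (by omega)]
    have h1 := (balanced_aux (m - 2 * k) k hk).2 (by omega)
    have e1 : k + (k + (m - 2 * k)) = m := by omega
    have e2 : k + (m - 2 * k) = m - k := by omega
    rw [e1, e2] at h1
    exact h1

theorem cliffordVol_min (m k : ℕ) (hk : 1 ≤ k) (hkm : k < m) :
    (k = m / 2 ∨ k = m - m / 2) ∨ cliffordVol m (m / 2) < cliffordVol m k := by
  by_cases h : 2 * k ≤ m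
  · rcases cliffordVol_min_aux m k hk h with h1 | h1
    · exact Or.inl (Or.inl h1)
    · exact Or.inr h1
  · rcases cliffordVol_min_aux m (m - k) (by omega) (by omega) with h1 | h1
    · left; right; omega
    · right
      rwa [cliffordVol_symm m k hk hkm] at h1

end Vale.Agent.P224
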