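import Vale.Agent.P224.Main

namespace Vale.Agent.P224

open Real Set MeasureTheory

/-- `Γ(y + 1/2)^2 ≤ y Γ(y)^2` by log-convexity -/
lemma Gamma_half_sq {y : ℝ} (hy : 0 < y) : Gamma (y + 1 / 2) ^ 2 ≤ y * Gamma y ^ 2 := by
  have h := Real.Gamma_mul_add_mul_le_rpow_Gamma_mul_rpow_Gamma hy (show 0 < y + 1 by linarith)
    (show (0 : ℝ) < 1 / 2 by norm_num) (show (0 : ℝ) < 1 / 2 by norm_num) (by norm_num)
  have e : 1 / 2 * y + 1 / 2 * (y + 1) = y + 1 / 2 := by ring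
  rw [e, Gamma_add_one hy.ne'] at h
  have hG := Gamma_pos_of_pos hy
  have hG2 := Gamma_pos_of_pos (show 0 < y + 1 / 2 by linarith)
  have h2 : Gamma (y + 1 / 2) ^ 2 ≤ (Gamma y ^ (1 / 2 : ℝ) * (y * Gamma y) ^ (1 / 2 : ℝ)) ^ 2 :=
    pow_le_pow_left₀ hG2.le h 2
  have h3 : (Gamma y ^ (1 / 2 : ℝ) * (y * Gamma y) ^ (1 / 2 : ℝ)) ^ 2 = y * Gamma y ^ 2 := by
    rw [mul_pow, ← rpow_natCast, ← rpow_natCast, ← rpow_mul hG.le, ← rpow_mul (by positivity)]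
    norm_num
    ring
  rw [h3] at h2
  exact h2

lemma bernoulli_half (n : ℕ) (hn : 1 ≤ n) : ((n : ℝ) / (n + 1)) ^ n ≤ 1 / 2 := by
  have hn0 : (0 : ℝ) < n := by exact_mod_cast hn
  have h1 : (2 : ℝ) ≤ (1 + 1 / (n : ℝ)) ^ n := by
    have := one_add_mul_le_pow (show (-2 : ℝ) ≤ 1 / (n : ℝ) by
      have : (0 : ℝ) ≤ 1 / (n : ℝ) := by positivity
      linarith) n
    have e : 1 + (n : ℝ) * (1 / (n : ℝ)) = 2 := by field_simp; norm_num
    linarith
  have h2 : ((n : ℝ) / (n + 1)) ^ n = 1 / (1 + 1 / (n : ℝ)) ^ n := by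
    rw [← one_div_pow]
    congr 1
    field_simp
  rw [h2]
  exact one_div_le_one_div_of_le (by norm_num) h1

/-- The Clifford product `C_{1,m-1}` has volume less than `2 |S^m|`. -/
theorem cliffordVol_one_lt (m : ℕ) (hm : 2 ≤ m) : cliffordVol m 1 < 2 * sphereVol m := by
  obtain ⟨n, rfl⟩ : ∃ n, m = n + 1 := ⟨m - 1, by omega⟩
  have hn : 1 ≤ n := by omega
  have hn0 : (0 : ℝ) < n := by exact_mod_cast hn
  unfold cliffordVol
  have e0 : n + 1 - 1 = n := by omega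
  rw [e0, sphereVol_eq 1, sphereVol_eq n, sphereVol_eq (n + 1)]
  set y : ℝ := ((n : ℝ) + 1) / 2 with hy
  have hy0 : 0 < y := by positivity
  have e1 : (((n + 1 : ℕ) : ℝ) + 1) / 2 = y + 1 / 2 := by rw [hy]; push_cast; ring
  have e2 : (((1 : ℕ) : ℝ) + 1) / 2 = 1 := by norm_num
  rw [e1, e2, Gamma_one]
  have hG := Gamma_pos_of_pos hy0
  have hG2 := Gamma_pos_of_pos (show 0 < y + 1 / 2 by linarith)
  have hsq : √π ^ 2 = π := Real.sq_sqrt pi_pos.le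
  have hspos : 0 < √π := Real.sqrt_pos.mpr pi_pos
  set a : ℝ := (((1 : ℕ) : ℝ) / ((n + 1 : ℕ) : ℝ)) ^ (((1 : ℕ) : ℝ) / 2) with ha
  set q : ℝ := ((n : ℝ) / ((n + 1 : ℕ) : ℝ)) ^ ((n : ℝ) / 2) with hq
  have ha0 : 0 < a := by rw [ha]; positivity
  have hq0 : 0 < q := by rw [hq]; positivity
  have ha2 : a ^ 2 = 1 / ((n : ℝ) + 1) := by
    rw [ha, ← rpow_natCast, ← rpow_mul (by positivity)]
    norm_num
  have hq2 : q ^ 2 ≤ 1 / 2 := by
    rw [hq, ← rpow_natCast, ← rpow_mul (by positivity)]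
    have : (n : ℝ) / 2 * ((2 : ℕ) : ℝ) = n := by push_cast; ring
    rw [this, rpow_natCast]
    have := bernoulli_half n hn
    push_cast
    exact this
  -- reduce to  a q √π Γ(y+1/2) < Γ(y)
  have key : a * q * √π * Gamma (y + 1 / 2) < Gamma y := by
    have hlt : (a * q * √π * Gamma (y + 1 / 2)) ^ 2 < Gamma y ^ 2 := by
      have h1 : (a * q * √π * Gamma (y + 1 / 2)) ^ 2
          = a ^ 2 * q ^ 2 * π * Gamma (y + 1 / 2) ^ 2 := by
        rw [mul_pow, mul_pow, mul_pow, hsq]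
      rw [h1, ha2]
      have h2 := Gamma_half_sq hy0
      have h3 : 1 / ((n : ℝ) + 1) * q ^ 2 * π * Gamma (y + 1 / 2) ^ 2
          ≤ 1 / ((n : ℝ) + 1) * (1 / 2) * π * (y * Gamma y ^ 2) := by
        gcongr
      have h4 : 1 / ((n : ℝ) + 1) * (1 / 2) * π * (y * Gamma y ^ 2) = π / 4 * Gamma y ^ 2 := by
        rw [hy]; field_simp; ring
      have h5 : π / 4 * Gamma y ^ 2 < Gamma y ^ 2 := by
        have : π / 4 < 1 := by linarith [Real.pi_lt_four]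
        nlinarith [pow_pos hG 2]
      linarith
    exact lt_of_pow_lt_pow_left₀ 2 hG.le hlt
  have hpow1 : √π ^ (1 + 1) = π := hsq
  have hpow2 : √π ^ (n + 1 + 1) = √π ^ (n + 1) * √π := by rw [pow_succ]
  rw [hpow1, hpow2]
  have hP : 0 < √π ^ (n + 1) := by positivity
  rw [div_one]
  have goal_eq : a * q * (2 * π) * (2 * √π ^ (n + 1) / Gamma y)
      = (4 * √π ^ (n + 1) * √π / (Gamma y * Gamma (y + 1 / 2))) * (a * q * √π * Gamma (y + 1 / 2)) := by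
    field_simp
    rw [hsq]
    ring
  have goal_eq2 : 2 * (2 * (√π ^ (n + 1) * √π) / Gamma (y + 1 / 2))
      = (4 * √π ^ (n + 1) * √π / (Gamma y * Gamma (y + 1 / 2))) * Gamma y := by
    field_simp
    ring
  rw [goal_eq, goal_eq2]
  exact mul_lt_mul_of_pos_left key (by positivity)

end Vale.Agent.P224
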